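import Vale.Agent.Lib.P154B.Fast2

namespace Vale.Agent.Lib.P154P.Tab.T3

open Vale.Agent.Lib.P154B

def mkR (t L : ℕ) (hs : List ℕ) : Rec := ⟨t, L, hs⟩

def qsD : List ℕ := [1197256467,4848888697,9818999613,13255649478,13421345096,10871289528,7338120431,4245626820,2149348577,967206859,391718777,144223731,48675508,15164292,4386812,1184438,299810,71424,16069]

end Vale.Agent.Lib.P154P.Tab.T3
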