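import Vale.Agent.Lib.P154P.Tab.T3.P0

namespace Vale.Agent.Lib.P154P.Tab.T3

open Vale.Agent.Lib.P154B

theorem tr0_check : tr0.check = true := by decide +kernel

theorem tr0_chk2 : tr0.chk2 = true := by decide +kernel

theorem lp0_check : lp0.check = true := by decide +kernel

theorem lp0_chk2 : lp0.chk2 = true := by decide +kernel

theorem tr0_g1 : grpOK tr0.T.par.b tr0.T.par.P tr0_gl = true := by decide +kernel

theorem tr0_g2 : grpOK tr0.T.par.b tr0.T.par.P tr0_ge = true := by decide +kernel

theorem lp0_g1 : grpOK lp0.T.par.b lp0.T.par.P lp0_gl = true := by decide +kernel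

theorem lp0_g2 : grpOK lp0.T.par.b lp0.T.par.P lp0_ge = true := by decide +kernel

end Vale.Agent.Lib.P154P.Tab.T3
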