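import Vale.Agent.Lib.P154P.Tab.T3.P1

namespace Vale.Agent.Lib.P154P.Tab.T3

open Vale.Agent.Lib.P154B

theorem tr1_check : tr1.check = true := by decide +kernel

theorem tr1_chk2 : tr1.chk2 = true := by decide +kernel

theorem lp1_check : lp1.check = true := by decide +kernel

theorem lp1_chk2 : lp1.chk2 = true := by decide +kernel

theorem tr1_g1 : grpOK tr1.T.par.b tr1.T.par.P tr1_gl = true := by decide +kernel

theorem tr1_g2 : grpOK tr1.T.par.b tr1.T.par.P tr1_ge = true := by decide +kernel

theorem lp1_g1 : grpOK lp1.T.par.b lp1.T.par.P lp1_gl = true := by decide +kernel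

theorem lp1_g2 : grpOK lp1.T.par.b lp1.T.par.P lp1_ge = true := by decide +kernel

end Vale.Agent.Lib.P154P.Tab.T3
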