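import Vale.Agent.Lib.P154P.Tab.T3.P1
import Vale.Agent.Lib.P154P.Tab.T3.St
import Vale.Agent.Lib.P154P.Tail

namespace Vale.Agent.Lib.P154P.Tab.T3

open Vale.Agent.Lib.P154B Vale.Agent.Lib.P154P

theorem last_t : Nat.ble 7555738892936551596032 (lp1.T.testSum (tailA 1 30) (lp1.parent s_70).1 (lp1.parent s_70).2) = true := by decide +kernel

end Vale.Agent.Lib.P154P.Tab.T3
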