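import Vale.Agent.Lib.P154P.Tab.T3.P0
import Vale.Agent.Lib.P154P.Tab.T3.St

namespace Vale.Agent.Lib.P154P.Tab.T3

open Vale.Agent.Lib.P154B

theorem run_0 : Nat.beq (nextF tr0.T.par tr0.T.S tr0.T.Q tr0_gl tr0_ge tr0.T.hv 0 0) s_0 = true := by decide +kernel

end Vale.Agent.Lib.P154P.Tab.T3
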