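import Vale.Agent.Lib.P154P.Tab.T3.P0
import Vale.Agent.Lib.P154P.Tab.T3.St

namespace Vale.Agent.Lib.P154P.Tab.T3

open Vale.Agent.Lib.P154B

theorem run_33 : Nat.beq (iterG lp0 lp0_gl lp0_ge 3 s_30) s_33 = true := by decide +kernel

end Vale.Agent.Lib.P154P.Tab.T3
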