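import Vale.Agent.Lib.P154P.Tab.T3.C0
import Vale.Agent.Lib.P154P.Tab.T3.C1
import Vale.Agent.Lib.P154P.Tab.T3.R0
import Vale.Agent.Lib.P154P.Tab.T3.R3
import Vale.Agent.Lib.P154P.Tab.T3.R6
import Vale.Agent.Lib.P154P.Tab.T3.R9
import Vale.Agent.Lib.P154P.Tab.T3.R12
import Vale.Agent.Lib.P154P.Tab.T3.R15
import Vale.Agent.Lib.P154P.Tab.T3.R18
import Vale.Agent.Lib.P154P.Tab.T3.R21
import Vale.Agent.Lib.P154P.Tab.T3.R24
import Vale.Agent.Lib.P154P.Tab.T3.R27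
import Vale.Agent.Lib.P154P.Tab.T3.R30
import Vale.Agent.Lib.P154P.Tab.T3.R33
import Vale.Agent.Lib.P154P.Tab.T3.R36
import Vale.Agent.Lib.P154P.Tab.T3.R39
import Vale.Agent.Lib.P154P.Tab.T3.R40
import Vale.Agent.Lib.P154P.Tab.T3.R43
import Vale.Agent.Lib.P154P.Tab.T3.R46
import Vale.Agent.Lib.P154P.Tab.T3.R49
import Vale.Agent.Lib.P154P.Tab.T3.R52
import Vale.Agent.Lib.P154P.Tab.T3.R55
import Vale.Agent.Lib.P154P.Tab.T3.R58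
import Vale.Agent.Lib.P154P.Tab.T3.R61
import Vale.Agent.Lib.P154P.Tab.T3.R64
import Vale.Agent.Lib.P154P.Tab.T3.R67
import Vale.Agent.Lib.P154P.Tab.T3.R70
import Vale.Agent.Lib.P154P.Tab.T3.Last

namespace Vale.Agent.Lib.P154P.Tab.T3

open Vale.Agent.Lib.P154B Vale.Agent.Lib.P154P

noncomputable section

theorem lp0_loop : lp0.IsLoop := ⟨rfl, rfl, rfl, rfl⟩

theorem lp1_loop : lp1.IsLoop := ⟨rfl, rfl, rfl, rfl⟩

section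
variable {A : ℕ → (Vec → ℝ) → ℝ} {μ : ℝ} (hF : FunSeq A μ 36 qsD) (hμ : μ ≤ ((1 : ℕ) : ℝ) / ((2 : ℕ) : ℝ))
include hF hμ

theorem lv_0 : StOK lp0.T.Lp.ρ lp0.T.par.r lp0.T.par.P lp0.S₀ lp0.ks₀ s_0 (chanF μ (A 0)) := by
  have h := Phase.run_start (ph := tr0) tr0_check hF (hm_of rfl rfl hμ)
  rw [start_of_beq (ph := tr0) rfl rfl tr0_g1 tr0_g2 run_0] at h
  exact h

theorem lv_3 : StOK lp0.T.Lp.ρ lp0.T.par.r lp0.T.par.P lp0.S₀ lp0.ks₀ s_3 (chanF μ (A 3)) := by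
  have h := Phase.run_loop (ph := lp0) lp0_check lp0_chk2 lp0_loop hF (Phase.rho_pos lp0_check) (hm_of rfl rfl hμ) 3 (lv_0 hF hμ)
  rw [run_of_beqG (ph := lp0) rfl rfl lp0_g1 lp0_g2 run_3] at h
  exact h

theorem lv_6 : StOK lp0.T.Lp.ρ lp0.T.par.r lp0.T.par.P lp0.S₀ lp0.ks₀ s_6 (chanF μ (A 6)) := by
  have h := Phase.run_loop (ph := lp0) lp0_check lp0_chk2 lp0_loop hF (Phase.rho_pos lp0_check) (hm_of rfl rfl hμ) 3 (lv_3 hF hμ)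
  rw [run_of_beqG (ph := lp0) rfl rfl lp0_g1 lp0_g2 run_6] at h
  exact h

theorem lv_9 : StOK lp0.T.Lp.ρ lp0.T.par.r lp0.T.par.P lp0.S₀ lp0.ks₀ s_9 (chanF μ (A 9)) := by
  have h := Phase.run_loop (ph := lp0) lp0_check lp0_chk2 lp0_loop hF (Phase.rho_pos lp0_check) (hm_of rfl rfl hμ) 3 (lv_6 hF hμ)
  rw [run_of_beqG (ph := lp0) rfl rfl lp0_g1 lp0_g2 run_9] at h
  exact h

theorem lv_12 : StOK lp0.T.Lp.ρ lp0.T.par.r lp0.T.par.P lp0.S₀ lp0.ks₀ s_12 (chanF μ (A 12)) := by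
  have h := Phase.run_loop (ph := lp0) lp0_check lp0_chk2 lp0_loop hF (Phase.rho_pos lp0_check) (hm_of rfl rfl hμ) 3 (lv_9 hF hμ)
  rw [run_of_beqG (ph := lp0) rfl rfl lp0_g1 lp0_g2 run_12] at h
  exact h

theorem lv_15 : StOK lp0.T.Lp.ρ lp0.T.par.r lp0.T.par.P lp0.S₀ lp0.ks₀ s_15 (chanF μ (A 15)) := by
  have h := Phase.run_loop (ph := lp0) lp0_check lp0_chk2 lp0_loop hF (Phase.rho_pos lp0_check) (hm_of rfl rfl hμ) 3 (lv_12 hF hμ)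
  rw [run_of_beqG (ph := lp0) rfl rfl lp0_g1 lp0_g2 run_15] at h
  exact h

theorem lv_18 : StOK lp0.T.Lp.ρ lp0.T.par.r lp0.T.par.P lp0.S₀ lp0.ks₀ s_18 (chanF μ (A 18)) := by
  have h := Phase.run_loop (ph := lp0) lp0_check lp0_chk2 lp0_loop hF (Phase.rho_pos lp0_check) (hm_of rfl rfl hμ) 3 (lv_15 hF hμ)
  rw [run_of_beqG (ph := lp0) rfl rfl lp0_g1 lp0_g2 run_18] at h
  exact h

theorem lv_21 : StOK lp0.T.Lp.ρ lp0.T.par.r lp0.T.par.P lp0.S₀ lp0.ks₀ s_21 (chanF μ (A 21)) := by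
  have h := Phase.run_loop (ph := lp0) lp0_check lp0_chk2 lp0_loop hF (Phase.rho_pos lp0_check) (hm_of rfl rfl hμ) 3 (lv_18 hF hμ)
  rw [run_of_beqG (ph := lp0) rfl rfl lp0_g1 lp0_g2 run_21] at h
  exact h

theorem lv_24 : StOK lp0.T.Lp.ρ lp0.T.par.r lp0.T.par.P lp0.S₀ lp0.ks₀ s_24 (chanF μ (A 24)) := by
  have h := Phase.run_loop (ph := lp0) lp0_check lp0_chk2 lp0_loop hF (Phase.rho_pos lp0_check) (hm_of rfl rfl hμ) 3 (lv_21 hF hμ)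
  rw [run_of_beqG (ph := lp0) rfl rfl lp0_g1 lp0_g2 run_24] at h
  exact h

theorem lv_27 : StOK lp0.T.Lp.ρ lp0.T.par.r lp0.T.par.P lp0.S₀ lp0.ks₀ s_27 (chanF μ (A 27)) := by
  have h := Phase.run_loop (ph := lp0) lp0_check lp0_chk2 lp0_loop hF (Phase.rho_pos lp0_check) (hm_of rfl rfl hμ) 3 (lv_24 hF hμ)
  rw [run_of_beqG (ph := lp0) rfl rfl lp0_g1 lp0_g2 run_27] at h
  exact h

theorem lv_30 : StOK lp0.T.Lp.ρ lp0.T.par.r lp0.T.par.P lp0.S₀ lp0.ks₀ s_30 (chanF μ (A 30)) := by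
  have h := Phase.run_loop (ph := lp0) lp0_check lp0_chk2 lp0_loop hF (Phase.rho_pos lp0_check) (hm_of rfl rfl hμ) 3 (lv_27 hF hμ)
  rw [run_of_beqG (ph := lp0) rfl rfl lp0_g1 lp0_g2 run_30] at h
  exact h

theorem lv_33 : StOK lp0.T.Lp.ρ lp0.T.par.r lp0.T.par.P lp0.S₀ lp0.ks₀ s_33 (chanF μ (A 33)) := by
  have h := Phase.run_loop (ph := lp0) lp0_check lp0_chk2 lp0_loop hF (Phase.rho_pos lp0_check) (hm_of rfl rfl hμ) 3 (lv_30 hF hμ)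
  rw [run_of_beqG (ph := lp0) rfl rfl lp0_g1 lp0_g2 run_33] at h
  exact h

theorem lv_36 : StOK lp0.T.Lp.ρ lp0.T.par.r lp0.T.par.P lp0.S₀ lp0.ks₀ s_36 (chanF μ (A 36)) := by
  have h := Phase.run_loop (ph := lp0) lp0_check lp0_chk2 lp0_loop hF (Phase.rho_pos lp0_check) (hm_of rfl rfl hμ) 3 (lv_33 hF hμ)
  rw [run_of_beqG (ph := lp0) rfl rfl lp0_g1 lp0_g2 run_36] at h
  exact h

theorem lv_39 : StOK lp0.T.Lp.ρ lp0.T.par.r lp0.T.par.P lp0.S₀ lp0.ks₀ s_39 (chanF μ (A 39)) := by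
  have h := Phase.run_loop (ph := lp0) lp0_check lp0_chk2 lp0_loop hF (Phase.rho_pos lp0_check) (hm_of rfl rfl hμ) 3 (lv_36 hF hμ)
  rw [run_of_beqG (ph := lp0) rfl rfl lp0_g1 lp0_g2 run_39] at h
  exact h

theorem lv_40 : StOK lp1.T.Lp.ρ lp1.T.par.r lp1.T.par.P lp1.S₀ lp1.ks₀ s_40 (chanF μ (A 40)) := by
  have h := Phase.run_step (ph := tr1) tr1_check tr1_chk2 hF (Phase.rho_pos tr1_check) (hm_of rfl rfl hμ) (lv_39 hF hμ)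
  rw [step_of_beqG (ph := tr1) rfl rfl tr1_g1 tr1_g2 run_40] at h
  exact h

theorem lv_43 : StOK lp1.T.Lp.ρ lp1.T.par.r lp1.T.par.P lp1.S₀ lp1.ks₀ s_43 (chanF μ (A 43)) := by
  have h := Phase.run_loop (ph := lp1) lp1_check lp1_chk2 lp1_loop hF (Phase.rho_pos lp1_check) (hm_of rfl rfl hμ) 3 (lv_40 hF hμ)
  rw [run_of_beqG (ph := lp1) rfl rfl lp1_g1 lp1_g2 run_43] at h
  exact h

theorem lv_46 : StOK lp1.T.Lp.ρ lp1.T.par.r lp1.T.par.P lp1.S₀ lp1.ks₀ s_46 (chanF μ (A 46)) := by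
  have h := Phase.run_loop (ph := lp1) lp1_check lp1_chk2 lp1_loop hF (Phase.rho_pos lp1_check) (hm_of rfl rfl hμ) 3 (lv_43 hF hμ)
  rw [run_of_beqG (ph := lp1) rfl rfl lp1_g1 lp1_g2 run_46] at h
  exact h

theorem lv_49 : StOK lp1.T.Lp.ρ lp1.T.par.r lp1.T.par.P lp1.S₀ lp1.ks₀ s_49 (chanF μ (A 49)) := by
  have h := Phase.run_loop (ph := lp1) lp1_check lp1_chk2 lp1_loop hF (Phase.rho_pos lp1_check) (hm_of rfl rfl hμ) 3 (lv_46 hF hμ)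
  rw [run_of_beqG (ph := lp1) rfl rfl lp1_g1 lp1_g2 run_49] at h
  exact h

theorem lv_52 : StOK lp1.T.Lp.ρ lp1.T.par.r lp1.T.par.P lp1.S₀ lp1.ks₀ s_52 (chanF μ (A 52)) := by
  have h := Phase.run_loop (ph := lp1) lp1_check lp1_chk2 lp1_loop hF (Phase.rho_pos lp1_check) (hm_of rfl rfl hμ) 3 (lv_49 hF hμ)
  rw [run_of_beqG (ph := lp1) rfl rfl lp1_g1 lp1_g2 run_52] at h
  exact h

theorem lv_55 : StOK lp1.T.Lp.ρ lp1.T.par.r lp1.T.par.P lp1.S₀ lp1.ks₀ s_55 (chanF μ (A 55)) := by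
  have h := Phase.run_loop (ph := lp1) lp1_check lp1_chk2 lp1_loop hF (Phase.rho_pos lp1_check) (hm_of rfl rfl hμ) 3 (lv_52 hF hμ)
  rw [run_of_beqG (ph := lp1) rfl rfl lp1_g1 lp1_g2 run_55] at h
  exact h

theorem lv_58 : StOK lp1.T.Lp.ρ lp1.T.par.r lp1.T.par.P lp1.S₀ lp1.ks₀ s_58 (chanF μ (A 58)) := by
  have h := Phase.run_loop (ph := lp1) lp1_check lp1_chk2 lp1_loop hF (Phase.rho_pos lp1_check) (hm_of rfl rfl hμ) 3 (lv_55 hF hμ)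
  rw [run_of_beqG (ph := lp1) rfl rfl lp1_g1 lp1_g2 run_58] at h
  exact h

theorem lv_61 : StOK lp1.T.Lp.ρ lp1.T.par.r lp1.T.par.P lp1.S₀ lp1.ks₀ s_61 (chanF μ (A 61)) := by
  have h := Phase.run_loop (ph := lp1) lp1_check lp1_chk2 lp1_loop hF (Phase.rho_pos lp1_check) (hm_of rfl rfl hμ) 3 (lv_58 hF hμ)
  rw [run_of_beqG (ph := lp1) rfl rfl lp1_g1 lp1_g2 run_61] at h
  exact h

theorem lv_64 : StOK lp1.T.Lp.ρ lp1.T.par.r lp1.T.par.P lp1.S₀ lp1.ks₀ s_64 (chanF μ (A 64)) := by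
  have h := Phase.run_loop (ph := lp1) lp1_check lp1_chk2 lp1_loop hF (Phase.rho_pos lp1_check) (hm_of rfl rfl hμ) 3 (lv_61 hF hμ)
  rw [run_of_beqG (ph := lp1) rfl rfl lp1_g1 lp1_g2 run_64] at h
  exact h

theorem lv_67 : StOK lp1.T.Lp.ρ lp1.T.par.r lp1.T.par.P lp1.S₀ lp1.ks₀ s_67 (chanF μ (A 67)) := by
  have h := Phase.run_loop (ph := lp1) lp1_check lp1_chk2 lp1_loop hF (Phase.rho_pos lp1_check) (hm_of rfl rfl hμ) 3 (lv_64 hF hμ)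
  rw [run_of_beqG (ph := lp1) rfl rfl lp1_g1 lp1_g2 run_67] at h
  exact h

theorem lv_70 : StOK lp1.T.Lp.ρ lp1.T.par.r lp1.T.par.P lp1.S₀ lp1.ks₀ s_70 (chanF μ (A 70)) := by
  have h := Phase.run_loop (ph := lp1) lp1_check lp1_chk2 lp1_loop hF (Phase.rho_pos lp1_check) (hm_of rfl rfl hμ) 3 (lv_67 hF hμ)
  rw [run_of_beqG (ph := lp1) rfl rfl lp1_g1 lp1_g2 run_70] at h
  exact h

theorem final_t : A 71 (tailPhi ((29 : ℝ) / 10)) ≤ -((7555738892936551596032 : ℕ) : ℝ) * (1 / (2 ^ 36 * 2 ^ 40)) := by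
  have h := Phase.test_bound (ph := lp1) lp1_check lp1_chk2 hF (Phase.rho_pos lp1_check) (lv_70 hF hμ) (tailPhi_isTest (A := (29 : ℝ) / 10) (by norm_num)) (tailA_bd (A := (29 : ℝ) / 10) (k := 1) (m := 30) (by norm_num) (by norm_num))
  refine h.trans ?_
  have hc := Nat.le_of_ble_eq_true last_t
  have hc' : ((7555738892936551596032 : ℕ) : ℝ) ≤ ((lp1.T.testSum (tailA 1 30) (lp1.parent s_70).1 (lp1.parent s_70).2 : ℕ) : ℝ) := Nat.cast_le.2 hc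
  have hp : (0 : ℝ) ≤ 1 / (2 ^ lp1.T.par.P * 2 ^ 40) := by positivity
  have := mul_le_mul_of_nonneg_right hc' hp
  change _ ≤ -((7555738892936551596032 : ℕ) : ℝ) * (1 / (2 ^ lp1.T.par.P * 2 ^ 40))
  linarith

end

end

end Vale.Agent.Lib.P154P.Tab.T3
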