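import Vale.Agent.Lib.P154P.Tab.T3.Base

namespace Vale.Agent.Lib.P154P.Tab.T3

open Vale.Agent.Lib.P154B

noncomputable def ksNone : List Trip := []

noncomputable def ks0_0 : List Trip := [
(0,59,61),
(0,60,60),
(1,59,60),
(2,58,60),
(2,59,59),
(3,58,59),
(4,57,59),
(4,58,58),
(5,57,58),
(6,56,58),
(6,57,57),
(7,56,57),
(8,55,57),
(8,56,56),
(9,55,56),
(10,54,56),
(10,55,55),
(11,54,55),
(12,53,55),
(12,54,54),
(13,53,54),
(14,52,54),
(14,53,53),
(15,52,53),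
(16,51,53),
(16,52,52),
(17,51,52),
(18,50,52),
(18,51,51),
(19,50,51),
(20,49,51),
(20,50,50),
(21,49,50),
(22,48,50),
(22,49,49),
(23,48,49),
(24,47,49),
(24,48,48),
(25,46,49),
(25,47,48),
(26,46,48),
(26,47,47),
(27,45,48),
(27,46,47),
(28,45,47),
(28,46,46),
(29,44,47),
(29,45,46),
(30,43,47),
(30,44,46),
(30,45,45),
(31,43,46),
(31,44,45),
(32,42,46),
(32,43,45),
(32,44,44),
(33,41,46),
(33,42,45),
(33,43,44),
(34,40,46),
(34,41,45),
(34,42,44),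
(34,43,43),
(35,39,46),
(35,40,45),
(35,41,44),
(35,42,43),
(36,39,45),
(36,40,44),
(36,41,43),
(36,42,42),
(37,38,45),
(37,39,44),
(37,40,43),
(37,41,42),
(38,38,44),
(38,39,43),
(38,40,42),
(38,41,41),
(39,39,42),
(39,40,41),
(40,40,40)]

noncomputable def ks0 : List Trip := ks0_0

noncomputable def ks1_0 : List Trip := [
(0,75,75),
(1,74,75),
(2,73,75),
(2,74,74),
(3,73,74),
(4,72,74),
(4,73,73),
(5,72,73),
(6,71,73),
(6,72,72),
(7,71,72),
(8,70,72),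
(8,71,71),
(9,70,71),
(10,69,71),
(10,70,70),
(11,69,70),
(12,68,70),
(12,69,69),
(13,68,69),
(14,67,69),
(14,68,68),
(15,67,68),
(16,66,68),
(16,67,67),
(17,66,67),
(18,65,67),
(18,66,66),
(19,65,66),
(20,64,66),
(20,65,65),
(21,64,65),
(22,63,65),
(22,64,64),
(23,62,65),
(23,63,64),
(24,62,64),
(24,63,63),
(25,61,64),
(25,62,63),
(26,61,63),
(26,62,62),
(27,60,63),
(27,61,62),
(28,60,62),
(28,61,61),
(29,59,62),
(29,60,61),
(30,58,62),
(30,59,61),
(30,60,60),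
(31,58,61),
(31,59,60),
(32,57,61),
(32,58,60),
(32,59,59),
(33,57,60),
(33,58,59),
(34,56,60),
(34,57,59),
(34,58,58),
(35,55,60),
(35,56,59),
(35,57,58),
(36,55,59),
(36,56,58),
(36,57,57),
(37,54,59),
(37,55,58),
(37,56,57),
(38,53,59),
(38,54,58),
(38,55,57),
(38,56,56),
(39,52,59),
(39,53,58),
(39,54,57),
(39,55,56),
(40,52,58),
(40,53,57),
(40,54,56),
(40,55,55),
(41,51,58),
(41,52,57),
(41,53,56),
(41,54,55),
(42,50,58),
(42,51,57),
(42,52,56),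
(42,53,55),
(42,54,54),
(43,49,58),
(43,50,57),
(43,51,56),
(43,52,55),
(43,53,54),
(44,48,58),
(44,49,57),
(44,50,56),
(44,51,55),
(44,52,54),
(44,53,53),
(45,47,58),
(45,48,57),
(45,49,56),
(45,50,55),
(45,51,54),
(45,52,53),
(46,46,58),
(46,47,57),
(46,48,56),
(46,49,55),
(46,50,54),
(46,51,53),
(46,52,52),
(47,47,56),
(47,48,55),
(47,49,54),
(47,50,53),
(47,51,52),
(48,48,54),
(48,49,53),
(48,50,52),
(48,51,51),
(49,49,52),
(49,50,51),
(50,50,50)]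

noncomputable def ks1 : List Trip := ks1_0

end Vale.Agent.Lib.P154P.Tab.T3
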