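import Vale.Agent.Lib.P154P.Tab.T3.Chain
import Vale.Agent.Lib.P154P.BoxCert

namespace Vale.Agent.Lib.P154P.Tab.T3

open Vale.Agent.Lib.P154B Vale.Agent.Lib.P154P Vale.Agent.Lib.P154 Vale.Agent.Lib.P154.Mellin

noncomputable section

/-- The rational upper bound of the exponential at one sixteenth of the mean. -/
theorem hU : Real.exp ((81 : ℝ) / 320) ≤ ((1485013940427543906 : ℕ) : ℝ) / 2 ^ 60 :=
  exp_le_of (by norm_num) (by norm_num) (by norm_num [Finset.sum_range_succ, Nat.factorial])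

theorem hex : (((2 ^ (60 * 16) : ℕ) : ℝ)) / ((1485013940427543906 ^ 16 : ℕ) : ℝ) ≤ Real.exp (-(((81 : ℕ) : ℝ) / ((20 : ℕ) : ℝ))) :=
  hex_of (by norm_num) hU

theorem poiOK : poiChk 36 81 20 (2 ^ (60 * 16)) (1485013940427543906 ^ 16) 0 1 qsD = true := by decide +kernel

/-- The levels of the tree at the corner of the box. -/
def Acorner : ℕ → (Vec → ℝ) → ℝ :=
  fun n => gwFun (poissonLaw (((81 : ℕ) : ℝ) / ((20 : ℕ) : ℝ))) (-(((1 : ℕ) : ℝ) / ((2 : ℕ) : ℝ))) n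

theorem hF : FunSeq Acorner (((1 : ℕ) : ℝ) / ((2 : ℕ) : ℝ)) 36 qsD :=
  funSeq_poi (by norm_num) (by norm_num) (by norm_num) hex poiOK (by norm_num) (by norm_num)

theorem corner_t : gwFun (poissonLaw (((81 : ℕ) : ℝ) / ((20 : ℕ) : ℝ))) (-(((1 : ℕ) : ℝ) / ((2 : ℕ) : ℝ))) 71 (tailPhi ((29 : ℝ) / 10))
    ≤ -((7555738892936551596032 : ℕ) : ℝ) * (1 / (2 ^ 36 * 2 ^ 40)) :=
  final_t hF le_rfl

/-- The tail bound in the whole box. -/
theorem tail_bound {μ : ℝ} (h0 : 0 < μ) (h1 : μ ≤ 1 / 2) (hd : 1 / μ ^ 2 ≤ 81 / 20) {n : ℕ} (hn : 71 ≤ n) :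
    Ex (poissonLaw (1 / μ ^ 2)) (-μ) n (tailT ((29 : ℝ) / 10)) ≤ 1 / 1000000 := by
  have hd0 : (0 : ℝ) ≤ 1 / μ ^ 2 := by positivity
  have hd' : (1 / μ ^ 2 : ℝ) ≤ ((81 : ℕ) : ℝ) / ((20 : ℕ) : ℝ) := by
    push_cast
    exact hd
  have hp := poisson_wprob hd0
  have hp' := poisson_wprob (hd0.trans hd')
  have := Ex_tail_le hp hp' (poisson_stoch hd0 hd') h0.le (μ' := ((1 : ℕ) : ℝ) / ((2 : ℕ) : ℝ)) (by push_cast; exact h1) (by norm_num) (by norm_num)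
    (A := (29 : ℝ) / 10) (by norm_num) hn corner_t
  refine this.trans ?_
  norm_num

end

end Vale.Agent.Lib.P154P.Tab.T3
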